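import Mathlib

/-!
# Radical layers and minimal projective presentations over rings with `J ^ 3 = 0`

Here `J` is the Jacobson radical of a ring `R`.  We write `rad R X` for `J • ⊤`, and we construct
for each finitely generated module `X` a finitely generated projective module `P` with a surjection
`π : P → X` whose kernel lies in `rad R P` (a projective cover).
-/

namespace Vale.Agent.Lib.P195

universe u

section Rad

variable (R : Type u) [Ring R]

/-- The radical submodule `J • X`, with `J` the Jacobson radical of `R`. -/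
abbrev rad (X : Type*) [AddCommGroup X] [Module R X] : Submodule R X :=
  (Ring.jacobson R) • (⊤ : Submodule R X)

/-- `X` is killed by the Jacobson radical. -/
def Killed (X : Type*) [AddCommGroup X] [Module R X] : Prop :=
  ∀ a ∈ Ring.jacobson R, ∀ x : X, a • x = 0

/-- The cube of the Jacobson radical vanishes. -/
def Cube : Prop :=
  ∀ a ∈ Ring.jacobson R, ∀ b ∈ Ring.jacobson R, ∀ c ∈ Ring.jacobson R, a * b * c = 0

variable {R}
variable {X Y : Type*} [AddCommGroup X] [Module R X] [AddCommGroup Y] [Module R Y]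

lemma smul_mem_rad {a : R} (ha : a ∈ Ring.jacobson R) (x : X) : a • x ∈ rad R X :=
  Submodule.smul_mem_smul ha trivial

lemma rad_induction {p : X → Prop} {x : X} (hx : x ∈ rad R X)
    (h1 : ∀ a ∈ Ring.jacobson R, ∀ y : X, p (a • y))
    (h2 : ∀ u v, p u → p v → p (u + v)) : p x :=
  Submodule.smul_induction_on hx (fun a ha y _ => h1 a ha y) h2

lemma map_mem_rad (f : X →ₗ[R] Y) {x : X} (hx : x ∈ rad R X) : f x ∈ rad R Y := by
  refine rad_induction (p := fun x => f x ∈ rad R Y) hx (fun a ha y => ?_) (fun u v hu hv => ?_)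
  · rw [map_smul]; exact smul_mem_rad ha _
  · rw [map_add]; exact add_mem hu hv

/-- The map induced on radical submodules. -/
def radMap (f : X →ₗ[R] Y) : rad R X →ₗ[R] rad R Y :=
  f.restrict (fun _ hx => map_mem_rad f hx)

@[simp] lemma radMap_coe (f : X →ₗ[R] Y) (x : rad R X) : ((radMap f x : rad R Y) : Y) = f x := rfl

lemma radMap_surjective {f : X →ₗ[R] Y} (hf : Function.Surjective f) :
    Function.Surjective (radMap (R := R) f) := by
  rintro ⟨y, hy⟩
  suffices h : ∃ x : X, x ∈ rad R X ∧ f x = y by
    obtain ⟨x, hx, rfl⟩ := h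
    exact ⟨⟨x, hx⟩, rfl⟩
  refine rad_induction (p := fun y => ∃ x : X, x ∈ rad R X ∧ f x = y) hy
    (fun a ha z => ?_) (fun u v hu hv => ?_)
  · obtain ⟨x, rfl⟩ := hf z
    exact ⟨a • x, smul_mem_rad ha x, by simp⟩
  · obtain ⟨x, hx, rfl⟩ := hu
    obtain ⟨x', hx', rfl⟩ := hv
    exact ⟨x + x', add_mem hx hx', by simp⟩

lemma Killed.of_injective {f : X →ₗ[R] Y} (hf : Function.Injective f) (h : Killed R Y) :
    Killed R X := fun a ha x => hf (by rw [map_smul, h a ha, map_zero])

lemma killed_submodule (h : Killed R X) (N : Submodule R X) : Killed R N :=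
  Killed.of_injective (f := N.subtype) N.injective_subtype h

lemma killed_quot_rad : Killed R (X ⧸ rad R X) := by
  intro a ha x
  obtain ⟨x, rfl⟩ := Submodule.Quotient.mk_surjective _ x
  rw [← Submodule.Quotient.mk_smul, Submodule.Quotient.mk_eq_zero]
  exact smul_mem_rad ha x

/-- Any linear map out of a submodule of the radical into a module whose radical is killed by `J`
kills the radical of that submodule, etc.: this is the basic computation. -/
lemma mem_rad_rad_map_zero (h : Killed R (rad R Y)) (g : X →ₗ[R] Y) {x : X}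
    (hx : x ∈ (Ring.jacobson R) • (rad R X)) : g x = 0 := by
  induction hx using Submodule.smul_induction_on' with
  | smul a ha y hy =>
    rw [map_smul]
    have := h a ha ⟨g y, map_mem_rad g hy⟩
    simpa using congrArg Subtype.val this
  | add u _ v _ hu hv => rw [map_add, hu, hv, add_zero]

lemma Cube.smul_smul_smul (hc : Cube R) {a b c : R} (ha : a ∈ Ring.jacobson R)
    (hb : b ∈ Ring.jacobson R) (hc' : c ∈ Ring.jacobson R) (x : X) : a • b • c • x = 0 := by
  rw [smul_smul, smul_smul, hc a ha b hb c hc', zero_smul]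

lemma Cube.smul_smul_of_mem_rad (hc : Cube R) {a b : R} (ha : a ∈ Ring.jacobson R)
    (hb : b ∈ Ring.jacobson R) {z : X} (hz : z ∈ rad R X) : a • b • z = 0 := by
  refine rad_induction (p := fun z => a • b • z = 0) hz
    (fun c hc' y => hc.smul_smul_smul ha hb hc' y) (fun u v hu hv => ?_)
  rw [smul_add, smul_add, hu, hv, add_zero]

lemma coe_mem_smul_of_mem_rad (K : Submodule R X) {x : K} (hx : x ∈ rad R K) :
    (x : X) ∈ (Ring.jacobson R) • K := by
  have h2 : Submodule.map K.subtype (rad R K) ≤ (Ring.jacobson R) • K := by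
    rw [Submodule.map_smul'']
    simp
  exact h2 ⟨_, hx, rfl⟩

/-- Over a ring with `J ^ 3 = 0`, a submodule of the radical of any module has radical killed
by `J`. -/
lemma Cube.killed_rad_of_le_rad (hc : Cube R) (K : Submodule R X) (hK : K ≤ rad R X) :
    Killed R (rad R K) := by
  rintro a ha ⟨x, hx⟩
  apply Subtype.ext
  apply Subtype.ext
  have hx' := coe_mem_smul_of_mem_rad K hx
  change a • (x : X) = 0
  refine Submodule.smul_induction_on hx' (fun b hb y hy => ?_) (fun u v hu hv => ?_)
  · exact hc.smul_smul_of_mem_rad ha hb (hK hy)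
  · rw [smul_add, hu, hv, add_zero]

end Rad

section Cover

variable {R : Type u} [Ring R]
variable {X Y : Type*} [AddCommGroup X] [Module R X] [AddCommGroup Y] [Module R Y]

lemma semisimple_of_killed [IsSemisimpleRing (R ⧸ Ring.jacobson R)] (h : Killed R X) :
    IsSemisimpleModule R X := by
  have hM : Module.IsTorsionBySet R X (Ring.jacobson R : Set R) := fun x a => h a a.2 x
  let _ := hM.module
  exact (hM.isSemisimpleModule_iff).1 inferInstance

lemma Cube.triple_smul_eq_bot (hc : Cube R) :
    (Ring.jacobson R) • ((Ring.jacobson R) • (rad R X)) = ⊥ := by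
  rw [eq_bot_iff]
  intro x hx
  rw [Submodule.mem_bot]
  refine Submodule.smul_induction_on hx (fun a ha y hy => ?_) (fun u v hu hv => ?_)
  · refine Submodule.smul_induction_on hy (fun b hb z hz => ?_) (fun u v hu hv => ?_)
    · exact hc.smul_smul_of_mem_rad ha hb hz
    · rw [smul_add, hu, hv, add_zero]
  · rw [hu, hv, add_zero]

/-- Nakayama's lemma, in the form needed here. -/
lemma Cube.nakayama (hc : Cube R) (N : Submodule R X) (h : N ⊔ rad R X = ⊤) : N = ⊤ := by
  set I := Ring.jacobson R with hI
  have hle : ∀ A : Submodule R X, I • (N ⊔ A) ≤ N ⊔ I • A := fun A => by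
    rw [Submodule.smul_sup]
    exact sup_le_sup_right Submodule.smul_le_right _
  have h0 : (⊤ : Submodule R X) ≤ N ⊔ I • (⊤ : Submodule R X) := h.ge
  have step : ∀ A : Submodule R X, (⊤ : Submodule R X) ≤ N ⊔ A →
      (⊤ : Submodule R X) ≤ N ⊔ I • A := fun A hA => by
    refine h0.trans (sup_le le_sup_left ?_)
    exact (Submodule.smul_mono le_rfl hA).trans (hle A)
  have h2 := step _ (step _ h0)
  have h3 : I • (I • (I • (⊤ : Submodule R X))) = ⊥ := hc.triple_smul_eq_bot
  rw [h3, sup_bot_eq] at h2
  exact eq_top_iff.2 h2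

/-- Endomorphisms of `F` act on `F ⧸ rad F`. -/
noncomputable def quotEnd (F : Type*) [AddCommGroup F] [Module R F] :
    Module.End R F →+* Module.End R (F ⧸ rad R F) where
  toFun f := (rad R F).mapQ (rad R F) f (fun _ hx => map_mem_rad f hx)
  map_one' := by
    apply Submodule.linearMap_qext
    ext x
    rfl
  map_mul' f g := by
    apply Submodule.linearMap_qext
    ext x
    rfl
  map_zero' := by
    apply Submodule.linearMap_qext
    ext x
    simp
  map_add' f g := by
    apply Submodule.linearMap_qext
    ext x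
    rfl

lemma quotEnd_mk (F : Type*) [AddCommGroup F] [Module R F] (f : Module.End R F) (x : F) :
    quotEnd F f (Submodule.Quotient.mk x) = Submodule.Quotient.mk (f x) := rfl

lemma quotEnd_surjective (F : Type*) [AddCommGroup F] [Module R F] [Module.Projective R F] :
    Function.Surjective (quotEnd (R := R) F) := by
  intro g
  obtain ⟨f, hf⟩ := Module.projective_lifting_property (rad R F).mkQ (g ∘ₗ (rad R F).mkQ)
    (Submodule.mkQ_surjective _)
  refine ⟨f, ?_⟩
  apply Submodule.linearMap_qext
  ext x
  exact LinearMap.congr_fun hf x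

lemma quotEnd_ker_nilpotent (hc : Cube R) (F : Type*) [AddCommGroup F] [Module R F]
    (f : Module.End R F) (hf : f ∈ RingHom.ker (quotEnd (R := R) F)) : IsNilpotent f := by
  have hf' : ∀ x, f x ∈ rad R F := fun x => by
    have h1 := congrArg (fun g => g (Submodule.Quotient.mk x)) (RingHom.mem_ker.1 hf)
    simp only [quotEnd_mk, LinearMap.zero_apply, Submodule.Quotient.mk_eq_zero] at h1
    exact h1
  refine ⟨3, ?_⟩
  ext x
  set I := Ring.jacobson R with hI
  have h1 : ∀ y ∈ rad R F, f y ∈ I • rad R F := fun y hy => by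
    refine rad_induction (p := fun y => f y ∈ I • rad R F) hy (fun a ha z => ?_)
      (fun u v hu hv => ?_)
    · rw [map_smul]
      exact Submodule.smul_mem_smul ha (hf' z)
    · rw [map_add]; exact add_mem hu hv
  have h2 : ∀ y ∈ I • rad R F, f y ∈ I • (I • rad R F) := fun y hy => by
    refine Submodule.smul_induction_on hy (fun a ha z hz => ?_) (fun u v hu hv => ?_)
    · rw [map_smul]
      exact Submodule.smul_mem_smul ha (h1 z hz)
    · rw [map_add]; exact add_mem hu hv
  have h3 : f (f (f x)) ∈ I • (I • rad R F) := h2 _ (h1 _ (hf' x))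
  rw [hc.triple_smul_eq_bot, Submodule.mem_bot] at h3
  simpa [pow_succ] using h3

/-- Existence of projective covers: the projective module is a direct summand of a free module,
given as the range of an idempotent endomorphism. -/
theorem exists_cover [IsSemisimpleRing (R ⧸ Ring.jacobson R)] (hc : Cube R) [Module.Finite R X] :
    ∃ (m : ℕ) (E : Module.End R (Fin m → R)) (π : LinearMap.range E →ₗ[R] X),
      IsIdempotentElem E ∧ Function.Surjective π ∧
        LinearMap.ker π ≤ rad R (LinearMap.range E) := by
  obtain ⟨m, φ, hφ⟩ := Module.Finite.exists_fin' R X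
  let F := Fin m → R
  have : IsSemisimpleModule R (F ⧸ rad R F) :=
    semisimple_of_killed (killed_quot_rad (X := F))
  let mk := (rad R F).mkQ
  let Kb : Submodule R (F ⧸ rad R F) := (LinearMap.ker φ).map mk
  obtain ⟨C, hC⟩ := exists_isCompl Kb
  let e := Submodule.prodEquivOfIsCompl C Kb hC.symm
  let ε : Module.End R (F ⧸ rad R F) :=
    C.subtype ∘ₗ LinearMap.fst R C Kb ∘ₗ (e.symm : (F ⧸ rad R F) →ₗ[R] C × Kb)
  have hε_ker : ∀ q ∈ Kb, ε q = 0 := fun q hq => by
    have : (e.symm q).1 = 0 :=
      (Submodule.prodEquivOfIsCompl_symm_apply_fst_eq_zero C Kb hC.symm).2 hq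
    change ((e.symm q).1 : F ⧸ rad R F) = 0
    rw [this]; rfl
  have hε_sub : ∀ q, q - ε q ∈ Kb := fun q => by
    have h1 : q = ((e.symm q).1 : F ⧸ rad R F) + ((e.symm q).2 : F ⧸ rad R F) :=
      (e.apply_symm_apply q).symm
    have : q - ε q = ((e.symm q).2 : F ⧸ rad R F) := by
      change q - ((e.symm q).1 : F ⧸ rad R F) = _
      nth_rewrite 1 [h1]
      abel
    rw [this]
    exact (e.symm q).2.2
  have hε_idem : IsIdempotentElem ε := by
    refine LinearMap.ext fun q => ?_
    change ε (ε q) = ε q
    have h1 : ε (q - ε q) = 0 := hε_ker _ (hε_sub q)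
    rw [map_sub, sub_eq_zero] at h1
    exact h1.symm
  obtain ⟨E, hE, hEε⟩ := exists_isIdempotentElem_eq_of_ker_isNilpotent (quotEnd (R := R) F)
    (fun f hf => quotEnd_ker_nilpotent hc F f hf) ε (quotEnd_surjective F ε) hε_idem
  have hE' : ∀ x, E (E x) = E x := fun x => LinearMap.congr_fun hE x
  have hmkE : ∀ x, mk (E x) = ε (mk x) := fun x => by
    rw [← hEε]; rfl
  let π : LinearMap.range E →ₗ[R] X := φ ∘ₗ (LinearMap.range E).subtype
  refine ⟨m, E, π, hE, ?_, ?_⟩
  · -- surjectivity
    have htop : LinearMap.range π ⊔ rad R X = ⊤ := by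
      rw [eq_top_iff]
      intro x _
      obtain ⟨f, rfl⟩ := hφ x
      have h1 : mk f - ε (mk f) ∈ Kb := hε_sub _
      obtain ⟨y, hy, hy'⟩ := h1
      have h2 : f - E f - y ∈ rad R F := by
        have : mk (f - E f - y) = 0 := by
          rw [map_sub, map_sub, hmkE, ← hy', sub_self]
        exact (Submodule.Quotient.mk_eq_zero _).1 this
      have h3 : φ f = π (LinearMap.rangeRestrict E f) + φ (f - E f - y) := by
        have : φ y = 0 := hy
        change φ f = φ (E f) + φ (f - E f - y)
        rw [map_sub, map_sub, this]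
        abel
      rw [h3]
      exact Submodule.add_mem_sup (LinearMap.mem_range_self _ _) (map_mem_rad φ h2)
    have := hc.nakayama _ htop
    exact LinearMap.range_eq_top.1 this
  · -- kernel
    rintro ⟨p, hp⟩ hker
    have h0 : φ p = 0 := hker
    obtain ⟨f, rfl⟩ := hp
    have h1 : mk (E f) = 0 := by
      have h2 : ε (mk (E f)) = 0 := hε_ker _ ⟨E f, h0, rfl⟩
      rw [← h2, hmkE (E f) |>.symm, hE']
    have h2 : E f ∈ rad R F := (Submodule.Quotient.mk_eq_zero _).1 h1
    have h3 := map_mem_rad (LinearMap.rangeRestrict E) h2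
    have h4 : LinearMap.rangeRestrict E (E f) = ⟨E f, f, rfl⟩ := by
      apply Subtype.ext
      exact hE' f
    rw [h4] at h3
    exact h3

end Cover

end Vale.Agent.Lib.P195
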