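import Vale.Agent.Lib.P195.Main

/-!
# From `Ext` groups to the elementary statements
-/

open CategoryTheory Abelian

namespace Vale.Agent.Lib.P195

universe u w

section

variable {R : Type u} [Ring R]
variable {P X : Type u} [AddCommGroup P] [Module R P] [AddCommGroup X] [Module R X]
  {Y : Type u} [AddCommGroup Y] [Module R Y]

lemma ext1zero_of_ext {π : P →ₗ[R] X} (hπ : Function.Surjective π)
    (h : ∀ e : Ext (ModuleCat.of R X) (ModuleCat.of R Y) 1, e = 0) : Ext1Zero π Y := by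
  intro f
  have hS := LinearMap.shortExact_shortComplexKer hπ
  let x₁ : Ext (π.shortComplexKer).X₁ (ModuleCat.of R Y) 0 := Ext.mk₀ (ModuleCat.ofHom f)
  obtain ⟨x₂, hx₂⟩ := Ext.contravariant_sequence_exact₁ hS (ModuleCat.of R Y) x₁
    (n₁ := 1) rfl (h _)
  obtain ⟨g, rfl⟩ := (Ext.mk₀_bijective _ _).2 x₂
  rw [Ext.mk₀_comp_mk₀] at hx₂
  have h3 := (Ext.mk₀_bijective _ _).1 hx₂
  refine ⟨g.hom, fun x => ?_⟩
  have h4 := congrArg (fun φ => φ.hom x) h3
  exact h4

lemma ext_ker_zero {π : P →ₗ[R] X} (hπ : Function.Surjective π) [Module.Projective R P] {n : ℕ}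
    (h : ∀ e : Ext (ModuleCat.of R X) (ModuleCat.of R Y) (n + 1 + 1), e = 0) :
    ∀ e : Ext (ModuleCat.of R (LinearMap.ker π)) (ModuleCat.of R Y) (n + 1), e = 0 := by
  intro e
  have hS := LinearMap.shortExact_shortComplexKer hπ
  have hproj : Projective (π.shortComplexKer).X₂ :=
    (IsProjective.iff_projective (R := R) P).1 inferInstance
  obtain ⟨x₂, hx₂⟩ := Ext.contravariant_sequence_exact₁ hS (ModuleCat.of R Y) e
    (n₁ := n + 1 + 1) (by omega) (h _)
  rw [Ext.eq_zero_of_projective x₂] at hx₂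
  rw [← hx₂]
  simp

end

section Final

variable {k : Type w} [CommRing k] {R : Type u} [Ring R] [Algebra k R]
  [IsNoetherianRing R] [IsSemisimpleRing (R ⧸ Ring.jacobson R)]

/-- Dimension shifting along the syzygy sequence. -/
lemma ext_seq_zero (hc : Cube R) (M : KMod k R) (Y : Type u) [AddCommGroup Y] [Module R Y] (N : ℕ)
    (h : ∀ i : ℕ, 1 ≤ i → i ≤ N → ∀ e : Ext (ModuleCat.of R M) (ModuleCat.of R Y) i, e = 0) :
    ∀ a n : ℕ, a + (n + 1) ≤ N →
      ∀ e : Ext (ModuleCat.of R (seq hc M a)) (ModuleCat.of R Y) (n + 1), e = 0 := by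
  intro a
  induction a with
  | zero =>
    intro n hn e
    exact h (n + 1) (by omega) (by omega) e
  | succ a ih =>
    intro n hn
    exact ext_ker_zero (pcov hc M a).surj (ih (n + 1) (by omega))

/-- Elementary vanishing along the syzygy sequence. -/
lemma ext1zero_seq (hc : Cube R) (M : KMod k R) (Y : Type u) [AddCommGroup Y] [Module R Y] (N : ℕ)
    (h : ∀ i : ℕ, 1 ≤ i → i ≤ N → ∀ e : Ext (ModuleCat.of R M) (ModuleCat.of R Y) i, e = 0) :
    ∀ a < N, Ext1Zero (pcov hc M a).π Y := fun a ha =>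
  ext1zero_of_ext (pcov hc M a).surj (ext_seq_zero hc M Y N h a 0 (by omega))

end Final

section Main

/-- **The Auslander-Reiten conjecture for Artin algebras with `(rad R)³ = 0`**, with vanishing only
required in the finite range `1 ≤ i ≤ 2 ℓ(R / rad R) + 2`. -/
theorem projective_of_ext_vanishing_range
    (k : Type w) [CommRing k] [IsArtinianRing k] (R : Type u) [Ring R] [Algebra k R]
    [Module.Finite k R]
    (hJ : ∀ a ∈ Ring.jacobson R, ∀ b ∈ Ring.jacobson R, ∀ c ∈ Ring.jacobson R, a * b * c = 0)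
    (M : Type u) [AddCommGroup M] [Module R M] [Module.Finite R M]
    (hMM : ∀ i : ℕ, 1 ≤ i → (i : ℕ∞) ≤ 2 * Module.length R (R ⧸ Ring.jacobson R) + 2 →
      ∀ e : Ext (ModuleCat.of R M) (ModuleCat.of R M) i, e = 0)
    (hMR : ∀ i : ℕ, 1 ≤ i → (i : ℕ∞) ≤ 2 * Module.length R (R ⧸ Ring.jacobson R) + 2 →
      ∀ e : Ext (ModuleCat.of R M) (ModuleCat.of R R) i, e = 0) :
    Module.Projective R M := by
  have hart : IsArtinianRing R := IsArtinianRing.of_finite k R
  obtain ⟨ι, hfin, s, hcard, hs⟩ := exists_simple_family.{u, u} (R := R)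
  classical
  let _ : Module k M := Module.compHom M (algebraMap k R)
  have _ : IsScalarTower k R M := ⟨fun c r x => by
    change (c • r) • x = (algebraMap k R c) • (r • x)
    rw [Algebra.smul_def, mul_smul]⟩
  let N := 2 * Fintype.card ι + 2
  have hbound : ∀ i : ℕ, i ≤ N → (i : ℕ∞) ≤ 2 * Module.length R (R ⧸ Ring.jacobson R) + 2 := by
    intro i hi
    rw [← hcard]
    exact_mod_cast hi
  let Mk : KMod k R := KMod.mk M
  exact projective_of_ext1zero (k := k) hJ Mk N
    (ext1zero_seq hJ Mk M N fun i h1 h2 => hMM i h1 (hbound i h2))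
    (ext1zero_seq hJ Mk R N fun i h1 h2 => hMR i h1 (hbound i h2)) s hs (by omega)

end Main

end Vale.Agent.Lib.P195
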