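import Vale.Agent.Lib.P195.Simple

/-!
# The syzygy sequence and the main theorem in elementary form
-/

namespace Vale.Agent.Lib.P195

universe u w

section Triangular

/-- A triangular family is linearly independent. -/
lemma linInd_of_triangular {n : ℕ} {V : Type*} [AddCommGroup V] [Module ℚ V] (v : Fin n → V)
    (L : Fin n → V →ₗ[ℚ] ℚ) (h0 : ∀ i j, j < i → L i (v j) = 0) (h1 : ∀ i, L i (v i) ≠ 0) :
    LinearIndependent ℚ v := by
  rw [Fintype.linearIndependent_iff]
  intro g hg
  by_contra hcon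
  push Not at hcon
  let S := Finset.univ.filter (fun i => g i ≠ 0)
  have hS : S.Nonempty := by
    obtain ⟨i, hi⟩ := hcon
    exact ⟨i, by simp [S, hi]⟩
  let i0 := S.max' hS
  have hi0 : g i0 ≠ 0 := by
    have := S.max'_mem hS
    simpa [S] using this
  have hsum := congrArg (L i0) hg
  rw [map_sum, map_zero] at hsum
  rw [Finset.sum_eq_single i0] at hsum
  · rw [map_smul, smul_eq_mul] at hsum
    exact (mul_ne_zero hi0 (h1 i0)) hsum
  · intro j _ hj
    rw [map_smul, smul_eq_mul]
    by_cases hlt : j < i0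
    · rw [h0 i0 j hlt, mul_zero]
    · by_cases hgj : g j = 0
      · rw [hgj, zero_mul]
      · exfalso
        have hjS : j ∈ S := by simp [S, hgj]
        have := S.le_max' j hjS
        exact hj (le_antisymm this (not_lt.1 hlt))
  · intro h
    exact absurd (Finset.mem_univ _) h

end Triangular

section Elementary

variable {R : Type u} [Ring R]
variable {P X Y Q : Type*} [AddCommGroup P] [Module R P] [AddCommGroup X] [Module R X]
  [AddCommGroup Y] [Module R Y] [AddCommGroup Q] [Module R Q]

/-- Vanishing against `R` gives vanishing against finitely generated projective modules. -/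
lemma Ext1Zero.of_ring {π : P →ₗ[R] X} (h : Ext1Zero π R) [Module.Finite R Q]
    [Module.Projective R Q] : Ext1Zero π Q := by
  obtain ⟨n, r, s, _, _, hrs⟩ := Module.Finite.exists_comp_eq_id_of_projective R Q
  intro f
  choose g hg using fun i : Fin n =>
    h ((LinearMap.proj i : (Fin n → R) →ₗ[R] R) ∘ₗ s ∘ₗ f)
  refine ⟨r ∘ₗ LinearMap.pi g, fun x => ?_⟩
  have h1 : (LinearMap.pi g) (x : P) = s (f x) := by
    ext i
    simpa using hg i x
  have h2 := LinearMap.congr_fun hrs (f x)
  simp only [LinearMap.comp_apply, LinearMap.id_apply] at h2 ⊢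
  rw [h1, h2]

/-- The inductive step: `Ext¹(X, Y) = 0` and `Ext¹(ΩX, P_Y) = 0` imply `Ext¹(ΩX, ΩY) = 0`. -/
lemma Ext1Zero.step {πX : P →ₗ[R] X} {P' : Type*} [AddCommGroup P'] [Module R P']
    {πK : P' →ₗ[R] LinearMap.ker πX} (hπK : Function.Surjective πK) {PY : Type*}
    [AddCommGroup PY] [Module R PY] [Module.Projective R P] {πY : PY →ₗ[R] Y}
    (hπY : Function.Surjective πY) [Module.Projective R PY]
    (h1 : Ext1Zero πX Y) (h2 : Ext1Zero πK PY) : Ext1Zero πK (LinearMap.ker πY) := by
  intro f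
  -- view `f` as a map into `PY` and extend it
  obtain ⟨g, hg⟩ := h2 ((LinearMap.ker πY).subtype ∘ₗ f)
  -- the composite to `Y` descends to `ker πX`
  have hkill : ∀ z, πK z = 0 → (πY ∘ₗ g) z = 0 := fun z hz => by
    have h3 := hg ⟨z, hz⟩
    simp only [LinearMap.comp_apply]
    rw [h3]
    exact (f ⟨z, hz⟩).2
  obtain ⟨gbar, hgbar⟩ := exists_factor πK hπK (πY ∘ₗ g) hkill
  obtain ⟨G, hG⟩ := h1 gbar
  obtain ⟨G', hG'⟩ := Module.projective_lifting_property πY G hπY
  let g'' : P' →ₗ[R] PY := g - G' ∘ₗ (LinearMap.ker πX).subtype ∘ₗ πK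
  have hg'' : ∀ z, g'' z ∈ LinearMap.ker πY := fun z => by
    change πY (g z - G' ((πK z : LinearMap.ker πX) : P)) = 0
    rw [map_sub, sub_eq_zero]
    have h3 : πY (G' ((πK z : LinearMap.ker πX) : P)) = G ((πK z : LinearMap.ker πX) : P) :=
      LinearMap.congr_fun hG' _
    rw [h3, hG]
    exact (LinearMap.congr_fun hgbar z).symm
  refine ⟨g''.codRestrict _ hg'', fun z => ?_⟩
  apply Subtype.ext
  change g z - G' ((πK z : LinearMap.ker πX) : P) = _
  have hz : πK z = 0 := z.2
  rw [hz]
  simp only [ZeroMemClass.coe_zero, map_zero, sub_zero]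
  exact hg z

/-- If the syzygy is projective and `Ext¹(X, R) = 0` then `X` is projective. -/
lemma projective_of_syz [Module.Projective R P] {π : P →ₗ[R] X} (hπ : Function.Surjective π)
    (hE : Ext1Zero π R) [Module.Finite R (LinearMap.ker π)]
    [Module.Projective R (LinearMap.ker π)] : Module.Projective R X := by
  have hE' : Ext1Zero π (LinearMap.ker π) := hE.of_ring
  obtain ⟨r, hr⟩ := hE' LinearMap.id
  let v : P →ₗ[R] P := LinearMap.id - (LinearMap.ker π).subtype ∘ₗ r
  have hv : ∀ x, π x = 0 → v x = 0 := fun x hx => by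
    change x - ((r x : LinearMap.ker π) : P) = 0
    rw [hr ⟨x, hx⟩]
    simp
  obtain ⟨s, hs⟩ := exists_factor π hπ v hv
  refine Module.Projective.of_split s π ?_
  ext x
  obtain ⟨p, rfl⟩ := hπ x
  have h1 : s (π p) = p - ((r p : LinearMap.ker π) : P) := LinearMap.congr_fun hs p
  have h2 : π ((r p : LinearMap.ker π) : P) = 0 := (r p).2
  simp [h1, h2]

end Elementary

section Bundled

variable (k : Type w) [CommRing k] (R : Type u) [Ring R] [Algebra k R]

/-- A finitely generated `R`-module with a compatible `k`-module structure. -/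
structure KMod where
  carrier : Type u
  [acg : AddCommGroup carrier]
  [modR : Module R carrier]
  [modk : Module k carrier]
  [tower : IsScalarTower k R carrier]
  [fin : Module.Finite R carrier]

attribute [instance] KMod.acg KMod.modR KMod.modk KMod.tower KMod.fin

instance : CoeSort (KMod k R) (Type u) := ⟨KMod.carrier⟩

variable {k R}

/-- A projective cover of a bundled module. -/
structure KCover (X : KMod k R) where
  P : KMod k R
  proj : Module.Projective R P
  π : P →ₗ[R] X
  surj : Function.Surjective π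
  ker_le : LinearMap.ker π ≤ rad R P

attribute [instance] KCover.proj

theorem nonempty_cover [IsSemisimpleRing (R ⧸ Ring.jacobson R)] (hc : Cube R) (X : KMod k R) :
    Nonempty (KCover X) := by
  obtain ⟨m, E, π, hE, hsurj, hker⟩ := exists_cover (R := R) (X := X) hc
  have hproj : Module.Projective R (LinearMap.range E) := by
    refine Module.Projective.of_split (LinearMap.range E).subtype (LinearMap.rangeRestrict E) ?_
    refine LinearMap.ext ?_
    rintro ⟨_, y, rfl⟩
    apply Subtype.ext
    exact LinearMap.congr_fun hE y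
  exact ⟨⟨KMod.mk (LinearMap.range E), hproj, π, hsurj, hker⟩⟩

variable [IsNoetherianRing R] [IsSemisimpleRing (R ⧸ Ring.jacobson R)]

/-- The chosen projective cover. -/
noncomputable def cov (hc : Cube R) (X : KMod k R) : KCover X :=
  Classical.choice (nonempty_cover hc X)

/-- The syzygy. -/
noncomputable def syz (hc : Cube R) (X : KMod k R) : KMod k R :=
  KMod.mk (LinearMap.ker (cov hc X).π)

/-- The sequence of syzygies. -/
noncomputable def seq (hc : Cube R) (M : KMod k R) : ℕ → KMod k R
  | 0 => M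
  | n + 1 => syz hc (seq hc M n)

/-- The projective cover at stage `n`. -/
noncomputable abbrev pcov (hc : Cube R) (M : KMod k R) (n : ℕ) : KCover (seq hc M n) :=
  cov hc (seq hc M n)

lemma ext_seq (hc : Cube R) (M : KMod k R) (N : ℕ)
    (hM : ∀ a < N, Ext1Zero (pcov hc M a).π M) (hR : ∀ a < N, Ext1Zero (pcov hc M a).π R) :
    ∀ j d, j + d < N → Ext1Zero (pcov hc M (j + d)).π (seq hc M j) := by
  intro j
  induction j with
  | zero =>
    intro d hd
    rw [Nat.zero_add]
    exact hM d (by omega)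
  | succ j ih =>
    intro d hd
    have h1 := ih d (by omega)
    have h2 : Ext1Zero (pcov hc M (j + 1 + d)).π (pcov hc M j).P :=
      (hR (j + 1 + d) hd).of_ring
    have heq : j + 1 + d = j + d + 1 := by omega
    rw [heq] at h2 ⊢
    exact Ext1Zero.step (pcov hc M (j + d + 1)).surj (pcov hc M j).surj h1 h2

variable [IsArtinianRing k] [Module.Finite k R]

omit [IsArtinianRing k] [Module.Finite k R] in
lemma killed_rad_seq (hc : Cube R) (M : KMod k R) (i : ℕ) :
    Killed R (rad R (seq hc M (i + 1))) :=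
  hc.killed_rad_of_le_rad (LinearMap.ker (pcov hc M i).π) (pcov hc M i).ker_le

lemma qval_seq_eq_zero (hc : Cube R) (M : KMod k R) (N : ℕ)
    (hM : ∀ a < N, Ext1Zero (pcov hc M a).π M) (hR : ∀ a < N, Ext1Zero (pcov hc M a).π R)
    {a b : ℕ} (hab : b < a) (ha : a + 1 < N) :
    qval k R (pcov hc M (a + 1)).P (seq hc M (a + 1)) (seq hc M (b + 1)) = 0 := by
  have hE := ext_seq hc M N hM hR (b + 1) (a - (b + 1)) (by omega)
  have hE' := ext_seq hc M N hM hR (b + 1) (a + 1 - (b + 1)) (by omega)
  have e1 : b + 1 + (a - (b + 1)) = a := by omega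
  have e2 : b + 1 + (a + 1 - (b + 1)) = a + 1 := by omega
  rw [e1] at hE
  rw [e2] at hE'
  exact qval_eq_zero k (pcov hc M a).ker_le hE (killed_rad_seq hc M b)
    (pcov hc M (a + 1)).surj (pcov hc M (a + 1)).ker_le hE'

lemma qval_seq_pos (hc : Cube R) (M : KMod k R) (N : ℕ)
    (hM : ∀ a < N, Ext1Zero (pcov hc M a).π M) (hR : ∀ a < N, Ext1Zero (pcov hc M a).π R)
    {a : ℕ} (ha : a + 1 < N) (hnt : Nontrivial (seq hc M (a + 1))) :
    1 ≤ qval k R (pcov hc M (a + 1)).P (seq hc M (a + 1)) (seq hc M (a + 1)) := by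
  have hE := ext_seq hc M N hM hR (a + 1) 0 (by omega)
  exact qval_pos k (pcov hc M (a + 1)).surj (pcov hc M (a + 1)).ker_le hE
    (killed_rad_seq hc M a)

/-- The core: at most `2 * card ι` of the syzygies can be nonzero. -/
theorem exists_trivial_seq (hc : Cube R) (M : KMod k R) (N : ℕ)
    (hM : ∀ a < N, Ext1Zero (pcov hc M a).π M) (hR : ∀ a < N, Ext1Zero (pcov hc M a).π R)
    {ι : Type*} [Fintype ι] [DecidableEq ι] (s : ι → Submodule R (R ⧸ Ring.jacobson R))
    (hs : ∀ (T : Type u) [AddCommGroup T] [Module R T] [IsSimpleModule R T], Killed R T →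
        ∃ l, Nonempty (s l ≃ₗ[R] T))
    (hN : 2 * Fintype.card ι + 1 < N) :
    ∃ i, i + 1 < N ∧ Subsingleton (seq hc M (i + 1)) := by
  by_contra hcon
  push Not at hcon
  have hnt : ∀ i, i + 1 < N → Nontrivial (seq hc M (i + 1)) := hcon
  have hm1 : ∀ i : ℕ, ∃ m : ι → ℕ, ∀ (A : Type u) [AddCommGroup A] [Module R A]
      [Module.Finite R A], len k (A →ₗ[R] ((seq hc M (i + 1)) ⧸ rad R (seq hc M (i + 1)))) =
        ∑ l, m l * len k (A →ₗ[R] s l) := fun i =>
    exists_mult k s hs _ _ killed_quot_rad rfl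
  have hm2 : ∀ i : ℕ, ∃ m : ι → ℕ, ∀ (A : Type u) [AddCommGroup A] [Module R A]
      [Module.Finite R A], len k (A →ₗ[R] (rad R (seq hc M (i + 1)))) =
        ∑ l, m l * len k (A →ₗ[R] s l) := fun i =>
    exists_mult k s hs _ _ (killed_rad_seq hc M i) rfl
  choose m1 hm1 using hm1
  choose m2 hm2 using hm2
  let w : ℕ → (ι ⊕ ι → ℚ) := fun i => Sum.elim (fun l => (m1 i l : ℚ)) (fun l => (m2 i l : ℚ))
  let x : ℕ → ι → ℚ := fun a l => (len k ((pcov hc M (a + 1)).P →ₗ[R] s l) : ℚ)
  let y : ℕ → ι → ℚ := fun a l => (len k (rad R (seq hc M (a + 1)) →ₗ[R] s l) : ℚ)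
    - (len k (rad R (pcov hc M (a + 1)).P →ₗ[R] s l) : ℚ)
  let L : ℕ → (ι ⊕ ι → ℚ) →ₗ[ℚ] ℚ := fun a =>
    ∑ l, (x a l) • (LinearMap.proj (Sum.inl l) : (ι ⊕ ι → ℚ) →ₗ[ℚ] ℚ)
      + ∑ l, (y a l) • (LinearMap.proj (Sum.inr l) : (ι ⊕ ι → ℚ) →ₗ[ℚ] ℚ)
  have hL : ∀ a b, L a (w b) =
      (qval k R (pcov hc M (a + 1)).P (seq hc M (a + 1)) (seq hc M (b + 1)) : ℚ) := by
    intro a b
    simp only [L, w, qval, LinearMap.add_apply, LinearMap.sum_apply, LinearMap.smul_apply,
      LinearMap.proj_apply, Sum.elim_inl, Sum.elim_inr, smul_eq_mul, x, y]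
    rw [hm1 b (pcov hc M (a + 1)).P, hm2 b (rad R (seq hc M (a + 1))),
      hm2 b (rad R (pcov hc M (a + 1)).P)]
    push_cast
    simp only [sub_mul, mul_sub, Finset.sum_sub_distrib, mul_comm]
    ring
  let n := N - 1
  have hli : LinearIndependent ℚ (fun i : Fin n => w i) := by
    refine linInd_of_triangular _ (fun i => L i) ?_ ?_
    · intro i j hji
      rw [hL]
      have h1 : (i : ℕ) + 1 < N := by have := i.2; omega
      rw [qval_seq_eq_zero hc M N hM hR hji h1]
      simp
    · intro i
      rw [hL]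
      have h1 : (i : ℕ) + 1 < N := by have := i.2; omega
      have h2 := qval_seq_pos hc M N hM hR h1 (hnt _ h1)
      have h3 : (0 : ℤ) < qval k R (pcov hc M (i + 1)).P (seq hc M (i + 1)) (seq hc M (i + 1)) := by
        omega
      exact_mod_cast h3.ne'
  have hcard := hli.fintype_card_le_finrank
  simp only [Fintype.card_fin, Module.finrank_fintype_fun_eq_card, Fintype.card_sum] at hcard
  omega

/-- The main theorem in elementary form. -/
theorem projective_of_ext1zero (hc : Cube R) (M : KMod k R) (N : ℕ)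
    (hM : ∀ a < N, Ext1Zero (pcov hc M a).π M) (hR : ∀ a < N, Ext1Zero (pcov hc M a).π R)
    {ι : Type*} [Fintype ι] [DecidableEq ι] (s : ι → Submodule R (R ⧸ Ring.jacobson R))
    (hs : ∀ (T : Type u) [AddCommGroup T] [Module R T] [IsSimpleModule R T], Killed R T →
        ∃ l, Nonempty (s l ≃ₗ[R] T))
    (hN : 2 * Fintype.card ι + 1 < N) :
    Module.Projective R M := by
  obtain ⟨i, hi, hsub⟩ := exists_trivial_seq hc M N hM hR s hs hN
  have key : ∀ d, d ≤ i + 1 → Module.Projective R (seq hc M (i + 1 - d)) := by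
    intro d
    induction d with
    | zero =>
      intro _
      have : Subsingleton (seq hc M (i + 1 - 0)) := hsub
      exact Module.Projective.of_free
    | succ d ih =>
      intro hd
      have h1 := ih (by omega)
      have e1 : i + 1 - d = (i + 1 - (d + 1)) + 1 := by omega
      rw [e1] at h1
      have h2 : Module.Projective R (LinearMap.ker (pcov hc M (i + 1 - (d + 1))).π) := h1
      have h3 : Module.Finite R (LinearMap.ker (pcov hc M (i + 1 - (d + 1))).π) := inferInstance
      exact projective_of_syz (pcov hc M (i + 1 - (d + 1))).surj (hR _ (by omega))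
  have h := key (i + 1) le_rfl
  rw [Nat.sub_self] at h
  exact h

end Bundled

end Vale.Agent.Lib.P195
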