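import Vale.Agent.Lib.P195.Theta

/-!
# Decomposing semisimple targets

Modules killed by the Jacobson radical are direct sums of finitely many types of simple modules,
so the length of `Hom(A, W)` is additive in `W`.
-/

namespace Vale.Agent.Lib.P195

universe u v w

open scoped DirectSum

section Family

variable {R : Type u} [Ring R]

lemma killed_quot_jacobson : Killed R (R ⧸ Ring.jacobson R) := by
  intro a ha x
  obtain ⟨x, rfl⟩ := Submodule.Quotient.mk_surjective _ x
  rw [← Submodule.Quotient.mk_smul, Submodule.Quotient.mk_eq_zero]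
  exact Ideal.mul_mem_right _ _ ha

/-- There are finitely many simple modules up to isomorphism, counted by the length of
`R ⧸ J`. -/
theorem exists_simple_family [IsSemisimpleRing (R ⧸ Ring.jacobson R)] [IsNoetherianRing R] :
    ∃ (ι : Type u) (_ : Fintype ι) (s : ι → Submodule R (R ⧸ Ring.jacobson R)),
      ((Fintype.card ι : ℕ∞) = Module.length R (R ⧸ Ring.jacobson R)) ∧
      ∀ (T : Type v) [AddCommGroup T] [Module R T] [IsSimpleModule R T], Killed R T →
        ∃ l, Nonempty (s l ≃ₗ[R] T) := by
  have hss : IsSemisimpleModule R (R ⧸ Ring.jacobson R) :=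
    semisimple_of_killed killed_quot_jacobson
  obtain ⟨s, hs, htop, hsimple⟩ :=
    IsSemisimpleModule.exists_sSupIndep_sSup_simples_eq_top R (R ⧸ Ring.jacobson R)
  have hfin : s.Finite := WellFoundedGT.finite_of_sSupIndep hs
  have : Fintype s := hfin.fintype
  refine ⟨s, inferInstance, fun m => m.1, ?_, ?_⟩
  · let p : s → Submodule R (R ⧸ Ring.jacobson R) := fun m => m.1
    have hind : iSupIndep p := (sSupIndep_iff s).1 hs
    have hsup : ⨆ i, p i = ⊤ := by
      rw [← htop, sSup_eq_iSup']
    have hint : DirectSum.IsInternal p :=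
      DirectSum.isInternal_submodule_of_iSupIndep_of_iSup_eq_top hind hsup
    let e : (⨁ i, p i) ≃ₗ[R] (R ⧸ Ring.jacobson R) :=
      LinearEquiv.ofBijective (DirectSum.coeLinearMap p) hint
    let e2 := DirectSum.linearEquivFunOnFintype R s (fun i => p i)
    rw [← e.length_eq, e2.length_eq, Module.length_pi_of_fintype]
    have h1 : ∀ i : s, Module.length R (p i) = 1 := fun i => by
      have := hsimple i.1 i.2
      exact Module.length_eq_one R _
    simp [h1]
  · intro T _ _ _ hT
    have : Nontrivial T := IsSimpleModule.nontrivial R T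
    obtain ⟨x, hx⟩ := exists_ne (0 : T)
    let u0 : R →ₗ[R] T := LinearMap.toSpanSingleton R T x
    have hu0 : Ring.jacobson R ≤ LinearMap.ker u0 := fun a ha => hT a ha x
    let u : (R ⧸ Ring.jacobson R) →ₗ[R] T := Submodule.liftQ _ u0 hu0
    have hu : u (Submodule.Quotient.mk 1) = x := by
      change u0 1 = x
      simp [u0]
    have hex : ∃ m : s, u ∘ₗ m.1.subtype ≠ 0 := by
      by_contra hcon
      push Not at hcon
      have hle : ∀ m ∈ s, m ≤ LinearMap.ker u := fun m hm y hy => by
        have := LinearMap.congr_fun (hcon ⟨m, hm⟩) ⟨y, hy⟩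
        exact this
      have h2 : (⊤ : Submodule R (R ⧸ Ring.jacobson R)) ≤ LinearMap.ker u := by
        rw [← htop]
        exact sSup_le hle
      have h3 : u (Submodule.Quotient.mk 1) = 0 := h2 trivial
      exact hx (hu ▸ h3)
    obtain ⟨m, hm⟩ := hex
    have := hsimple m.1 m.2
    exact ⟨m, ⟨LinearEquiv.ofBijective _ (LinearMap.bijective_of_ne_zero hm)⟩⟩

end Family

section Mult

variable (k : Type w) [CommRing k] {R : Type u} [Ring R] [Algebra k R]

variable {A B C : Type*} [AddCommGroup A] [Module R A] [AddCommGroup B] [Module R B]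
  [Module k B] [IsScalarTower k R B] [AddCommGroup C] [Module R C] [Module k C]
  [IsScalarTower k R C]

/-- Postcomposition with an `R`-linear equivalence is a `k`-linear equivalence. -/
def postEquiv (A : Type*) [AddCommGroup A] [Module R A] (e : B ≃ₗ[R] C) :
    (A →ₗ[R] B) ≃ₗ[k] (A →ₗ[R] C) where
  toFun g := e.toLinearMap ∘ₗ g
  invFun g := e.symm.toLinearMap ∘ₗ g
  map_add' _ _ := by ext; simp
  map_smul' c g := by
    ext x
    exact e.toLinearMap.map_smul_of_tower c (g x)
  left_inv g := by ext; simp
  right_inv g := by ext; simp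

lemma len_hom_of_isCompl (A : Type*) [AddCommGroup A] [Module R A] [Module.Finite R A]
    [IsArtinianRing k] [Module.Finite k R] [IsNoetherianRing R] {W : Type*} [AddCommGroup W]
    [Module R W] [Module k W] [IsScalarTower k R W] [Module.Finite R W] {S W' : Submodule R W}
    (h : IsCompl S W') :
    len k (A →ₗ[R] W) = len k (A →ₗ[R] S) + len k (A →ₗ[R] W') := by
  let e := Submodule.prodEquivOfIsCompl S W' h
  have h1 : len k (A →ₗ[R] W) = len k (A →ₗ[R] (S × W')) :=
    (len_congr k (postEquiv k A e)).symm
  have h2 : len k (A →ₗ[R] (S × W')) = len k ((A →ₗ[R] S) × (A →ₗ[R] W')) :=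
    (len_congr k (LinearMap.prodEquiv (S := k))).symm
  rw [h1, h2]
  exact len_prod k (length_hom_ne_top k _ _) (length_hom_ne_top k _ _)

variable [IsArtinianRing k] [Module.Finite k R] [IsNoetherianRing R]
  [IsSemisimpleRing (R ⧸ Ring.jacobson R)]

/-- Multiplicity vectors: `len Hom(A, W)` is a fixed linear combination of the `len Hom(A, S l)`,
uniformly in `A`. -/
theorem exists_mult {ι : Type*} [Fintype ι] [DecidableEq ι]
    (s : ι → Submodule R (R ⧸ Ring.jacobson R))
    (hs : ∀ (T : Type u) [AddCommGroup T] [Module R T] [IsSimpleModule R T], Killed R T →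
        ∃ l, Nonempty (s l ≃ₗ[R] T)) :
    ∀ (n : ℕ) (W : Type u) [AddCommGroup W] [Module R W] [Module k W] [IsScalarTower k R W]
      [Module.Finite R W], Killed R W → (Module.length R W).toNat = n →
      ∃ m : ι → ℕ, ∀ (A : Type u) [AddCommGroup A] [Module R A] [Module.Finite R A],
        len k (A →ₗ[R] W) = ∑ l, m l * len k (A →ₗ[R] s l) := by
  intro n
  induction n using Nat.strong_induction_on with
  | _ n ih =>
    intro W _ _ _ _ _ hW hn
    by_cases hnt : Nontrivial W
    · have hss : IsSemisimpleModule R W := semisimple_of_killed hW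
      obtain ⟨S, hS⟩ := IsSemisimpleModule.exists_simple_submodule R W
      obtain ⟨W', hW'⟩ := exists_isCompl S
      obtain ⟨l, ⟨el⟩⟩ := hs S (killed_submodule hW S)
      have hnoeth : IsNoetherian R W := inferInstance
      have hfink : Module.Finite k W := Module.Finite.trans R W
      have hart : IsArtinian R W := isArtinian_of_tower k inferInstance
      have hne : W' ≠ ⊤ := by
        intro htop
        have h1 : S = ⊥ := by
          have := hW'.inf_eq_bot
          rwa [htop, inf_top_eq] at this
        have := hS.nontrivial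
        subst h1
        exact not_subsingleton (⊥ : Submodule R W) inferInstance
      have hlt := Submodule.length_lt hne
      have hfinW : Module.length R W ≠ ⊤ := Module.length_ne_top
      have hfinW' : Module.length R W' ≠ ⊤ := ne_top_of_lt hlt
      have hlt' : (Module.length R W').toNat < n := by
        rw [← hn]
        lift Module.length R W' to ℕ using hfinW' with a ha
        lift Module.length R W to ℕ using hfinW with b hb
        simpa using hlt
      obtain ⟨m', hm'⟩ := ih _ hlt' W' (killed_submodule hW W') rfl
      refine ⟨m' + Pi.single l 1, ?_⟩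
      intro A _ _ _
      rw [len_hom_of_isCompl k A hW', hm' A]
      have h3 : len k (A →ₗ[R] S) = len k (A →ₗ[R] s l) := (len_congr k (postEquiv k A el)).symm
      rw [h3]
      simp only [Pi.add_apply, add_mul, Finset.sum_add_distrib, Pi.single_apply, ite_mul, one_mul,
        zero_mul, Finset.sum_ite_eq', Finset.mem_univ, if_true]
      ring
    · refine ⟨0, ?_⟩
      intro A _ _ _
      have : Subsingleton W := not_nontrivial_iff_subsingleton.1 hnt
      have h0 : len k (A →ₗ[R] W) = 0 := by
        have : Subsingleton (A →ₗ[R] W) := inferInstance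
        simp [len, Module.length_eq_zero]
      simp [h0]

end Mult

end Vale.Agent.Lib.P195
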