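import Vale.Agent.Lib.P195.Basic

/-!
# The comparison map `theta` and its Euler characteristic

For `π : P → X` and a module `Y`, the map
`theta : Hom(P, Y) × Hom(rad X, rad Y) → Hom(rad P, rad Y)`, `(f, h) ↦ f| - h ∘ π|`.
-/

namespace Vale.Agent.Lib.P195

universe u w

section Factor

variable {R : Type u} [Ring R]
variable {A B C : Type*} [AddCommGroup A] [Module R A] [AddCommGroup B] [Module R B]
  [AddCommGroup C] [Module R C]

lemma exists_factor (p : A →ₗ[R] B) (hp : Function.Surjective p) (v : A →ₗ[R] C)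
    (h : ∀ x, p x = 0 → v x = 0) : ∃ w : B →ₗ[R] C, w ∘ₗ p = v := by
  refine ⟨(LinearMap.ker p).liftQ v (fun x hx => h x hx) ∘ₗ
    (p.quotKerEquivOfSurjective hp).symm.toLinearMap, ?_⟩
  ext x
  have : (p.quotKerEquivOfSurjective hp).symm (p x) = Submodule.Quotient.mk x := by
    rw [LinearEquiv.symm_apply_eq]
    rfl
  simp only [LinearMap.comp_apply, LinearEquiv.coe_coe]
  rw [this]
  exact Submodule.liftQ_apply _ _ _

end Factor

/-- Every map from the kernel of `π` to `Y` extends to the source of `π`: the elementary form of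
the vanishing of the first `Ext` group. -/
def Ext1Zero {R : Type u} [Ring R] {P X : Type*} [AddCommGroup P] [Module R P] [AddCommGroup X]
    [Module R X] (π : P →ₗ[R] X) (Y : Type*) [AddCommGroup Y] [Module R Y] : Prop :=
  ∀ f : LinearMap.ker π →ₗ[R] Y, ∃ g : P →ₗ[R] Y, ∀ x : LinearMap.ker π, g x = f x

section Theta

variable (k : Type w) [CommRing k] {R : Type u} [Ring R] [Algebra k R]
variable {P X Y : Type*} [AddCommGroup P] [Module R P] [AddCommGroup X] [Module R X]
  [AddCommGroup Y] [Module R Y] [Module k Y] [IsScalarTower k R Y]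

/-- The comparison map. -/
def theta (π : P →ₗ[R] X) :
    ((P →ₗ[R] Y) × (rad R X →ₗ[R] rad R Y)) →ₗ[k] (rad R P →ₗ[R] rad R Y) where
  toFun p := radMap p.1 - p.2 ∘ₗ radMap π
  map_add' p q := by
    ext x
    simp [radMap]
    abel
  map_smul' c p := by
    ext x
    simp [radMap, smul_sub]

@[simp] lemma theta_apply_coe (π : P →ₗ[R] X) (p : (P →ₗ[R] Y) × (rad R X →ₗ[R] rad R Y))
    (x : rad R P) :
    ((theta k π p x : rad R Y) : Y) = p.1 x - ((p.2 (radMap π x) : rad R Y) : Y) := rfl

lemma theta_surjective {π : P →ₗ[R] X} (hπ : Function.Surjective π)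
    (hker : LinearMap.ker π ≤ rad R P) (hE : Ext1Zero π Y) :
    Function.Surjective (theta (Y := Y) k π) := by
  intro ψ
  obtain ⟨g, hg⟩ := hE ((rad R Y).subtype ∘ₗ ψ ∘ₗ Submodule.inclusion hker)
  have hv : ∀ x, radMap π x = 0 → (radMap g - ψ) x = 0 := by
    intro x hx
    have hx' : (x : P) ∈ LinearMap.ker π := by
      have := congrArg Subtype.val hx
      simpa using this
    have h4 : Submodule.inclusion hker ⟨(x : P), hx'⟩ = x := Subtype.ext rfl
    have h1 : g (x : P) = ((ψ (Submodule.inclusion hker ⟨(x : P), hx'⟩) : rad R Y) : Y) :=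
      hg ⟨x, hx'⟩
    rw [h4] at h1
    apply Subtype.ext
    simp only [LinearMap.sub_apply, Submodule.coe_sub, radMap_coe, ZeroMemClass.coe_zero]
    rw [h1, sub_self]
  obtain ⟨h, hh⟩ := exists_factor (radMap π) (radMap_surjective hπ) (radMap g - ψ) hv
  refine ⟨(g, h), ?_⟩
  ext x
  have h2 := LinearMap.congr_fun hh x
  have h3 := congrArg Subtype.val h2
  simp only [LinearMap.comp_apply, LinearMap.sub_apply, Submodule.coe_sub] at h3
  simp only [theta_apply_coe]
  rw [h3]
  simp

/-- If `Ext¹(X, Y)` vanishes, then `theta` of the syzygy of `X` is injective modulo maps into the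
radical of `Y`. -/
lemma theta_ker_of_syzygy {π : P →ₗ[R] X} (hker : LinearMap.ker π ≤ rad R P) (hE : Ext1Zero π Y)
    (hY : Killed R (rad R Y)) {P' : Type*} [AddCommGroup P'] [Module R P']
    {π' : P' →ₗ[R] LinearMap.ker π} (hπ' : Function.Surjective π')
    (hker' : LinearMap.ker π' ≤ rad R P')
    (p : (P' →ₗ[R] Y) × (rad R (LinearMap.ker π) →ₗ[R] rad R Y)) (hp : theta k π' p = 0) :
    (∀ z, p.1 z ∈ rad R Y) ∧ p.2 = 0 := by
  obtain ⟨f, h⟩ := p
  have hval : ∀ x : rad R P', f x = ((h (radMap π' x) : rad R Y) : Y) := fun x => by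
    have := theta_apply_coe k π' (f, h) x
    rw [hp] at this
    have h0 : (((0 : rad R P' →ₗ[R] rad R Y) x : rad R Y) : Y) = 0 := rfl
    rw [h0] at this
    exact sub_eq_zero.1 this.symm
  have hkill : ∀ x, π' x = 0 → f x = 0 := fun x hx => by
    have hx' : x ∈ rad R P' := hker' hx
    have h1 := hval ⟨x, hx'⟩
    have h2 : radMap π' ⟨x, hx'⟩ = 0 := by
      apply Subtype.ext
      simpa using hx
    rw [h2, map_zero] at h1
    simpa using h1
  obtain ⟨φ, hφ⟩ := exists_factor π' hπ' f hkill
  obtain ⟨g, hg⟩ := hE φ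
  have hf : ∀ z, f z = g (π' z) := fun z => by
    rw [hg]
    exact (LinearMap.congr_fun hφ z).symm
  refine ⟨fun z => ?_, ?_⟩
  · simp only
    rw [hf]
    exact map_mem_rad g (hker (π' z).2)
  · ext u
    obtain ⟨x, rfl⟩ := radMap_surjective hπ' u
    simp only [LinearMap.zero_apply, ZeroMemClass.coe_zero]
    rw [← hval x, hf]
    have h1 : ((π' x : LinearMap.ker π) : P) ∈ (Ring.jacobson R) • (rad R P) :=
      Submodule.smul_mono le_rfl hker (coe_mem_smul_of_mem_rad _ (radMap π' x).2)
    exact mem_rad_rad_map_zero hY g h1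

/-- Postcomposition with the inclusion of `rad Y`, as a `k`-linear map. -/
def postSub (P : Type*) [AddCommGroup P] [Module R P] :
    (P →ₗ[R] rad R Y) →ₗ[k] (P →ₗ[R] Y) where
  toFun g := (rad R Y).subtype ∘ₗ g
  map_add' _ _ := by ext; simp
  map_smul' _ _ := by ext; simp

/-- Postcomposition with the quotient map by `rad Y`, as a `k`-linear map. -/
def postQ (P : Type*) [AddCommGroup P] [Module R P] :
    (P →ₗ[R] Y) →ₗ[k] (P →ₗ[R] (Y ⧸ rad R Y)) where
  toFun g := (rad R Y).mkQ ∘ₗ g
  map_add' _ _ := by ext; simp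
  map_smul' _ _ := by ext; simp

lemma postSub_injective (P : Type*) [AddCommGroup P] [Module R P] :
    Function.Injective (postSub (R := R) (Y := Y) k P) := fun _ _ h => by
  ext x
  exact congrArg (fun f => f x) h

lemma postQ_surjective (P : Type*) [AddCommGroup P] [Module R P] [Module.Projective R P] :
    Function.Surjective (postQ (R := R) (Y := Y) k P) := fun g => by
  obtain ⟨f, hf⟩ := Module.projective_lifting_property (rad R Y).mkQ g (Submodule.mkQ_surjective _)
  exact ⟨f, hf⟩

lemma postSub_postQ_exact (P : Type*) [AddCommGroup P] [Module R P] :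
    Function.Exact (postSub (R := R) (Y := Y) k P) (postQ (R := R) (Y := Y) k P) := by
  intro g
  constructor
  · intro hg
    have h1 : ∀ x, g x ∈ rad R Y := fun x => by
      have := congrArg (fun f => f x) hg
      exact (Submodule.Quotient.mk_eq_zero _).1 this
    exact ⟨g.codRestrict _ h1, by ext; simp [postSub]⟩
  · rintro ⟨g', rfl⟩
    ext x
    simp [postQ, postSub]

/-- `g ↦ (g, 0)` from `Hom(P, rad Y)` to the source of `theta`. -/
def incl (P X : Type*) [AddCommGroup P] [Module R P] [AddCommGroup X] [Module R X] :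
    (P →ₗ[R] rad R Y) →ₗ[k] ((P →ₗ[R] Y) × (rad R X →ₗ[R] rad R Y)) :=
  LinearMap.prod (postSub k P) 0

lemma incl_injective (P X : Type*) [AddCommGroup P] [Module R P] [AddCommGroup X] [Module R X] :
    Function.Injective (incl (R := R) (Y := Y) k P X) := fun _ _ h =>
  postSub_injective k P (congrArg Prod.fst h)

lemma theta_incl {π : P →ₗ[R] X} (hY : Killed R (rad R Y)) (g : P →ₗ[R] rad R Y) :
    theta k π (incl k P X g) = 0 := by
  ext x
  have h1 : ∀ y ∈ rad R P, ((g y : rad R Y) : Y) = 0 := fun y hy => by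
    refine rad_induction (p := fun y => ((g y : rad R Y) : Y) = 0) hy (fun a ha z => ?_)
      (fun u v hu hv => ?_)
    · rw [map_smul, hY a ha]; rfl
    · rw [map_add, Submodule.coe_add, hu, hv, add_zero]
  simpa [incl, postSub] using h1 x x.2

/-- Exactness of `incl` and `theta` on a syzygy. -/
lemma incl_theta_exact {π : P →ₗ[R] X} (hker : LinearMap.ker π ≤ rad R P) (hE : Ext1Zero π Y)
    (hY : Killed R (rad R Y)) {P' : Type*} [AddCommGroup P'] [Module R P']
    {π' : P' →ₗ[R] LinearMap.ker π} (hπ' : Function.Surjective π')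
    (hker' : LinearMap.ker π' ≤ rad R P') :
    Function.Exact (incl (R := R) (Y := Y) k P' (LinearMap.ker π)) (theta k π') := by
  intro p
  constructor
  · intro hp
    obtain ⟨h1, h2⟩ := theta_ker_of_syzygy k hker hE hY hπ' hker' p hp
    refine ⟨p.1.codRestrict _ h1, ?_⟩
    refine Prod.ext ?_ h2.symm
    ext z
    rfl
  · rintro ⟨g, rfl⟩
    exact theta_incl k hY g

end Theta

section Numeric

variable (k : Type w) [CommRing k]

/-- The length over `k`, as a natural number. -/
noncomputable def len (A : Type*) [AddCommGroup A] [Module k A] : ℕ := (Module.length k A).toNat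

variable {A B C : Type*} [AddCommGroup A] [Module k A] [AddCommGroup B] [Module k B]
  [AddCommGroup C] [Module k C]

lemma len_add_of_exact (f : A →ₗ[k] B) (g : B →ₗ[k] C) (hf : Function.Injective f)
    (hg : Function.Surjective g) (h : Function.Exact f g) (hB : Module.length k B ≠ ⊤) :
    len k B = len k A + len k C := by
  have h1 := Module.length_eq_add_of_exact f g hf hg h
  rw [h1] at hB
  have h2 := (WithTop.add_ne_top.1 hB)
  simp only [len, h1]
  exact ENat.toNat_add h2.1 h2.2

lemma len_prod (hA : Module.length k A ≠ ⊤) (hB : Module.length k B ≠ ⊤) :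
    len k (A × B) = len k A + len k B := by
  simp only [len, Module.length_prod]
  exact ENat.toNat_add hA hB

lemma len_congr (e : A ≃ₗ[k] B) : len k A = len k B := by
  simp only [len, e.length_eq]

lemma len_lt_of_injective (i : A →ₗ[k] B) (hi : Function.Injective i)
    (hN : LinearMap.range i ≠ ⊤) (hfin : Module.length k B ≠ ⊤) : len k A < len k B := by
  obtain ⟨hno, hart⟩ := isFiniteLength_iff_isNoetherian_isArtinian.1
    (Module.length_ne_top_iff.1 hfin)
  have hlt := Submodule.length_lt (R := k) (M := B) (N := LinearMap.range i) hN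
  have h4 : len k A = len k (LinearMap.range i) :=
    len_congr k (LinearEquiv.ofInjective i hi)
  rw [h4]
  have hne : Module.length k (LinearMap.range i) ≠ ⊤ := ne_top_of_lt hlt
  unfold len
  lift Module.length k (LinearMap.range i) to ℕ using hne with a ha
  lift Module.length k B to ℕ using hfin with b hb
  simpa using hlt

end Numeric

section FiniteLength

variable (k : Type w) [CommRing k] [IsArtinianRing k] {R : Type u} [Ring R] [Algebra k R]
  [Module.Finite k R]

lemma length_hom_ne_top (A B : Type*) [AddCommGroup A] [Module R A] [Module.Finite R A]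
    [AddCommGroup B] [Module R B] [Module k B] [IsScalarTower k R B] [Module.Finite R B] :
    Module.length k (A →ₗ[R] B) ≠ ⊤ := by
  obtain ⟨m, φ, hφ⟩ := Module.Finite.exists_fin' R A
  let T : (A →ₗ[R] B) →ₗ[k] (Fin m → B) :=
    { toFun := fun f i => f (φ (Pi.single i 1))
      map_add' := fun _ _ => rfl
      map_smul' := fun _ _ => rfl }
  have hT : Function.Injective T := by
    intro f g hfg
    apply LinearMap.ext
    intro x
    obtain ⟨y, rfl⟩ := hφ x
    have h1 : f ∘ₗ φ = g ∘ₗ φ := by
      apply LinearMap.pi_ext'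
      intro i
      apply LinearMap.ext_ring
      exact congrFun hfg i
    exact LinearMap.congr_fun h1 y
  have : Module.Finite k B := Module.Finite.trans R B
  have h2 : Module.length k (Fin m → B) ≠ ⊤ := Module.length_ne_top
  have h3 := Module.length_le_of_injective T hT
  exact ne_top_of_le_ne_top h2 h3

end FiniteLength

section Q

variable (k : Type w) [CommRing k] [IsArtinianRing k] {R : Type u} [Ring R] [Algebra k R]
  [Module.Finite k R] [IsNoetherianRing R]

/-- The Euler characteristic of `theta`, with the part `Hom(P, rad Y)` removed. -/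
noncomputable def qval (R : Type u) [Ring R] [Algebra k R]
    (P X Y : Type*) [AddCommGroup P] [Module R P] [AddCommGroup X] [Module R X]
    [AddCommGroup Y] [Module R Y] [Module k Y] [IsScalarTower k R Y] : ℤ :=
  (len k (P →ₗ[R] (Y ⧸ rad R Y)) : ℤ) + (len k (rad R X →ₗ[R] rad R Y) : ℤ)
    - (len k (rad R P →ₗ[R] rad R Y) : ℤ)

variable {P X Y : Type*} [AddCommGroup P] [Module R P] [Module.Finite R P]
  [AddCommGroup X] [Module R X] [Module.Finite R X]
  [AddCommGroup Y] [Module R Y] [Module k Y] [IsScalarTower k R Y] [Module.Finite R Y]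

include k in
lemma length_dom_ne_top :
    Module.length k ((P →ₗ[R] Y) × (rad R X →ₗ[R] rad R Y)) ≠ ⊤ := by
  rw [Module.length_prod]
  exact WithTop.add_ne_top.2 ⟨length_hom_ne_top k _ _, length_hom_ne_top k _ _⟩

omit [IsNoetherianRing R] in
lemma len_hom_split [Module.Projective R P] :
    len k (P →ₗ[R] Y) = len k (P →ₗ[R] rad R Y) + len k (P →ₗ[R] (Y ⧸ rad R Y)) :=
  len_add_of_exact k _ _ (postSub_injective k P) (postQ_surjective k P) (postSub_postQ_exact k P)
    (length_hom_ne_top k _ _)

lemma len_dom :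
    len k ((P →ₗ[R] Y) × (rad R X →ₗ[R] rad R Y)) =
      len k (P →ₗ[R] Y) + len k (rad R X →ₗ[R] rad R Y) :=
  len_prod k (length_hom_ne_top k _ _) (length_hom_ne_top k _ _)

omit [Module.Finite R X] in
/-- The orthogonality: `q (ΩX, Y) = 0` if `Ext¹(X, Y) = 0 = Ext¹(ΩX, Y)`. -/
theorem qval_eq_zero {π : P →ₗ[R] X} (hker : LinearMap.ker π ≤ rad R P)
    (hE : Ext1Zero π Y) (hY : Killed R (rad R Y))
    {P' : Type*} [AddCommGroup P'] [Module R P'] [Module.Finite R P'] [Module.Projective R P']
    {π' : P' →ₗ[R] LinearMap.ker π} (hπ' : Function.Surjective π')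
    (hker' : LinearMap.ker π' ≤ rad R P') (hE' : Ext1Zero π' Y) :
    qval k R P' (LinearMap.ker π) Y = 0 := by
  have h1 := len_add_of_exact k (incl (R := R) (Y := Y) k P' (LinearMap.ker π)) (theta k π')
    (incl_injective k P' _) (theta_surjective k hπ' hker' hE')
    (incl_theta_exact k hker hE hY hπ' hker') (length_dom_ne_top k)
  have h2 := len_dom k (R := R) (P := P') (X := LinearMap.ker π) (Y := Y)
  have h3 := len_hom_split k (R := R) (P := P') (Y := Y)
  unfold qval
  omega

/-- The positivity: `q (X, X) > 0` if `X ≠ 0` and `Ext¹(X, X) = 0`. -/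
theorem qval_pos [Module.Projective R P] [Nontrivial X] [Module k X] [IsScalarTower k R X] {π : P →ₗ[R] X}
    (hπ : Function.Surjective π) (hker : LinearMap.ker π ≤ rad R P)
    (hE : Ext1Zero π X) (hX : Killed R (rad R X)) :
    1 ≤ qval k R P X X := by
  have hθ := theta_surjective (Y := X) k hπ hker hE
  let K0 := LinearMap.ker (theta (Y := X) k π)
  have h1 : len k ((P →ₗ[R] X) × (rad R X →ₗ[R] rad R X)) =
      len k K0 + len k (rad R P →ₗ[R] rad R X) :=
    len_add_of_exact k K0.subtype (theta k π) K0.injective_subtype hθ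
      (LinearMap.exact_subtype_ker_map _) (length_dom_ne_top k)
  let i' : (P →ₗ[R] rad R X) →ₗ[k] K0 :=
    LinearMap.codRestrict K0 (incl (R := R) (Y := X) k P X) (fun g => theta_incl k hX g)
  have hi' : Function.Injective i' := fun g g' h =>
    incl_injective k P X (congrArg Subtype.val h)
  have hN : LinearMap.range i' ≠ ⊤ := by
    intro htop
    have hmem : (⟨(π, LinearMap.id), by
        ext x
        simp [theta_apply_coe]⟩ : K0) ∈ LinearMap.range i' := by
      rw [htop]; trivial
    obtain ⟨g, hg⟩ := hmem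
    have h2 := congrArg Subtype.val hg
    have hπg : ∀ z, (rad R X).subtype (g z) = π z := fun z =>
      LinearMap.congr_fun (congrArg Prod.fst h2) z
    have hid : (0 : rad R X →ₗ[R] rad R X) = LinearMap.id := congrArg Prod.snd h2
    apply not_subsingleton X
    refine ⟨fun a b => ?_⟩
    have hrad : ∀ x : X, x = 0 := fun x => by
      obtain ⟨z, rfl⟩ := hπ x
      rw [← hπg z]
      have := LinearMap.congr_fun hid (g z)
      simp only [LinearMap.zero_apply, LinearMap.id_apply] at this
      rw [← this]
      rfl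
    rw [hrad a, hrad b]
  have hfin : Module.length k K0 ≠ ⊤ := by
    have h3 := Module.length_le_of_injective (R := k) (N := K0)
      (M := (P →ₗ[R] X) × (rad R X →ₗ[R] rad R X)) K0.subtype K0.injective_subtype
    exact ne_top_of_le_ne_top (length_dom_ne_top k) h3
  have h5 := len_lt_of_injective k i' hi' hN hfin
  have h2 := len_dom k (R := R) (P := P) (X := X) (Y := X)
  have h3 := len_hom_split k (R := R) (P := P) (Y := X)
  unfold qval
  omega

end Q

end Vale.Agent.Lib.P195
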